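import Mathlib

/-!
# P088: pointwise bounds of iterated derivatives

`D0 k B f z`: `‖D^j f z‖ ≤ B` for `j ≤ k`; `D1 k B f z`: for `1 ≤ j ≤ k`.
-/

open Set Filter
open scoped ContDiff Topology Nat

noncomputable section

namespace Vale.Agent.P088.R2.H509.Jet

variable {E : Type*} [NormedAddCommGroup E] [NormedSpace ℝ E] {k : ℕ} {A B C : ℝ} {f g : E → ℝ}
  {z : E}

def D0 (k : ℕ) (B : ℝ) (f : E → ℝ) (z : E) : Prop := ∀ j ≤ k, ‖iteratedFDeriv ℝ j f z‖ ≤ B

def D1 (k : ℕ) (B : ℝ) (f : E → ℝ) (z : E) : Prop :=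
  ∀ j, 1 ≤ j → j ≤ k → ‖iteratedFDeriv ℝ j f z‖ ≤ B

theorem le_inf (j : ℕ) : (j : WithTop ℕ∞) ≤ ∞ := by exact_mod_cast le_top

theorem D0.nn (h : D0 k B f z) : 0 ≤ B := (norm_nonneg _).trans (h 0 (Nat.zero_le _))

theorem D0.d1 (h : D0 k B f z) : D1 k B f z := fun j _ hj => h j hj

theorem D0.le (h : D0 k B f z) (hB : B ≤ A) : D0 k A f z := fun j hj => (h j hj).trans hB

theorem D1.le (h : D1 k B f z) (hB : B ≤ A) : D1 k A f z := fun j h1 hj => (h j h1 hj).trans hB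

theorem D0.val (h : D0 k B f z) : |f z| ≤ B := by
  have := h 0 (Nat.zero_le _)
  rwa [norm_iteratedFDeriv_zero] at this

theorem D0.const (c : ℝ) : D0 k |c| (fun _ : E => c) z := fun j _ => by
  rcases Nat.eq_zero_or_pos j with rfl | h
  · rw [norm_iteratedFDeriv_zero]
    exact le_rfl
  · rw [iteratedFDeriv_const_of_ne (by omega)]
    simp

theorem D0.add (hf : ContDiff ℝ ∞ f) (hg : ContDiff ℝ ∞ g) (h : D0 k A f z) (h' : D0 k B g z) :
    D0 k (A + B) (fun y => f y + g y) z := fun j hj => by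
  have e := fun_iteratedFDeriv_add_apply (x := z) ((hf.of_le (le_inf j)).contDiffAt)
    ((hg.of_le (le_inf j)).contDiffAt)
  rw [e]
  exact (norm_add_le _ _).trans (add_le_add (h j hj) (h' j hj))

theorem D1.add (hf : ContDiff ℝ ∞ f) (hg : ContDiff ℝ ∞ g) (h : D1 k A f z) (h' : D1 k B g z) :
    D1 k (A + B) (fun y => f y + g y) z := fun j h1 hj => by
  have e := fun_iteratedFDeriv_add_apply (x := z) ((hf.of_le (le_inf j)).contDiffAt)
    ((hg.of_le (le_inf j)).contDiffAt)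
  rw [e]
  exact (norm_add_le _ _).trans (add_le_add (h j h1 hj) (h' j h1 hj))

theorem D0.sum {ι : Type*} (S : Finset ι) {F : ι → E → ℝ} {a : ι → ℝ}
    (hF : ∀ i, ContDiff ℝ ∞ (F i)) (h : ∀ i ∈ S, D0 k (a i) (F i) z) :
    D0 k (∑ i ∈ S, a i) (fun y => ∑ i ∈ S, F i y) z := by
  classical
  induction S using Finset.induction_on with
  | empty => simpa using D0.const (k := k) (z := z) (0 : ℝ)
  | insert i S hi ih =>
    rw [Finset.sum_insert hi]
    have e : (fun y => ∑ i ∈ insert i S, F i y) = fun y => F i y + ∑ i ∈ S, F i y := by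
      funext y
      rw [Finset.sum_insert hi]
    rw [e]
    exact D0.add (hF i) (ContDiff.sum fun i _ => hF i) (h i (Finset.mem_insert_self i S))
      (ih fun j hj => h j (Finset.mem_insert_of_mem hj))

theorem D0.mul (hf : ContDiff ℝ ∞ f) (hg : ContDiff ℝ ∞ g) (h : D0 k A f z) (h' : D0 k B g z) :
    D0 k (2 ^ k * A * B) (fun y => f y * g y) z := fun j hj => by
  have hA := h.nn
  have hB := h'.nn
  refine (norm_iteratedFDeriv_mul_le hf hg z (n := j) (le_inf j)).trans ?_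
  calc ∑ i ∈ Finset.range (j + 1), (j.choose i : ℝ) * ‖iteratedFDeriv ℝ i f z‖ *
        ‖iteratedFDeriv ℝ (j - i) g z‖
      ≤ ∑ i ∈ Finset.range (j + 1), (j.choose i : ℝ) * A * B := by
        refine Finset.sum_le_sum fun i hi => ?_
        have hi' : i ≤ j := Nat.lt_succ_iff.1 (Finset.mem_range.1 hi)
        exact mul_le_mul (mul_le_mul_of_nonneg_left (h i (hi'.trans hj)) (Nat.cast_nonneg _))
          (h' (j - i) ((Nat.sub_le _ _).trans hj)) (norm_nonneg _) (by positivity)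
    _ = 2 ^ j * A * B := by
        rw [← Finset.sum_mul, ← Finset.sum_mul, ← Nat.cast_sum, Nat.sum_range_choose]
        push_cast
        ring
    _ ≤ 2 ^ k * A * B := by
        have : (2 : ℝ) ^ j ≤ 2 ^ k := pow_le_pow_right₀ (by norm_num) hj
        gcongr

theorem D0.cmul (c : ℝ) (hf : ContDiff ℝ ∞ f) (h : D0 k A f z) :
    D0 k (|c| * A) (fun y => c * f y) z := fun j hj => by
  have e : iteratedFDeriv ℝ j (fun y => c * f y) z = c • iteratedFDeriv ℝ j f z :=
    iteratedFDeriv_const_smul_apply (a := c) ((hf.of_le (le_inf j)).contDiffAt)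
  rw [e, norm_smul, Real.norm_eq_abs]
  exact mul_le_mul_of_nonneg_left (h j hj) (abs_nonneg c)

theorem D1.cmul (c : ℝ) (hf : ContDiff ℝ ∞ f) (h : D1 k A f z) :
    D1 k (|c| * A) (fun y => c * f y) z := fun j h1 hj => by
  have e : iteratedFDeriv ℝ j (fun y => c * f y) z = c • iteratedFDeriv ℝ j f z :=
    iteratedFDeriv_const_smul_apply (a := c) ((hf.of_le (le_inf j)).contDiffAt)
  rw [e, norm_smul, Real.norm_eq_abs]
  exact mul_le_mul_of_nonneg_left (h j h1 hj) (abs_nonneg c)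

/-- Composition. -/
theorem D1.comp {H : ℝ → ℝ} (hH : ContDiff ℝ ∞ H) (hf : ContDiff ℝ ∞ f) (hB : 1 ≤ B)
    (h : D1 k B f z) (hC : ∀ i ≤ k, |iteratedDeriv i H (f z)| ≤ C) :
    D0 k (k ! * C * B ^ k) (fun y => H (f y)) z := fun j hj => by
  have hC0 : 0 ≤ C := (abs_nonneg _).trans (hC 0 (Nat.zero_le _))
  have h1 := norm_iteratedFDeriv_comp_le hH hf (le_inf j) z (C := C) (D := B)
    (fun i hi => by
      rw [norm_iteratedFDeriv_eq_norm_iteratedDeriv, Real.norm_eq_abs]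
      exact hC i (hi.trans hj))
    (fun i h1 hi => (h i h1 (hi.trans hj)).trans (by
      calc B = B ^ 1 := (pow_one B).symm
        _ ≤ B ^ i := pow_le_pow_right₀ hB h1))
  refine h1.trans ?_
  have h2 : (j ! : ℝ) ≤ k ! := by exact_mod_cast Nat.factorial_le hj
  have h3 : B ^ j ≤ B ^ k := pow_le_pow_right₀ hB hj
  have : 0 ≤ B ^ j := pow_nonneg (by linarith) j
  gcongr

/-- Composition, only the derivatives of `H`. -/
theorem D1.comp1 {H : ℝ → ℝ} (hH : ContDiff ℝ ∞ H) (hf : ContDiff ℝ ∞ f) (hB : 1 ≤ B)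
    (h : D1 k B f z) (hC0 : 0 ≤ C) (hC : ∀ i, 1 ≤ i → i ≤ k → |iteratedDeriv i H (f z)| ≤ C) :
    D1 k (k ! * C * B ^ k) (fun y => H (f y)) z := by
  have h1 : D0 k (k ! * C * B ^ k) (fun y => H (f y) - H (f z)) z := by
    refine D1.comp (H := fun t => H t - H (f z)) (hH.sub contDiff_const) hf hB h fun i hi => ?_
    rcases Nat.eq_zero_or_pos i with rfl | hi0
    · rw [iteratedDeriv_zero]
      simpa using hC0
    · have e : iteratedDeriv i (fun t => H t - H (f z)) = iteratedDeriv i H := by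
        obtain ⟨m, rfl⟩ := Nat.exists_eq_succ_of_ne_zero (by omega : i ≠ 0)
        rw [iteratedDeriv_succ', iteratedDeriv_succ']
        congr 1
        funext t
        exact deriv_sub_const _
      rw [e]
      exact hC i hi0 hi
  intro j hj0 hj
  have h2 := h1 j hj
  have hs : ContDiff ℝ ∞ fun y => H (f y) := hH.comp hf
  have e : iteratedFDeriv ℝ j (fun y => H (f y) - H (f z)) z =
      iteratedFDeriv ℝ j (fun y => H (f y)) z := by
    have e1 := fun_iteratedFDeriv_sub_apply (x := z) ((hs.of_le (le_inf j)).contDiffAt)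
      ((contDiff_const (c := H (f z)) (n := (j : WithTop ℕ∞))).contDiffAt (x := z))
    rw [e1, iteratedFDeriv_const_of_ne (by omega)]
    simp
  rwa [e] at h2

/-- The derivative in a direction. -/
theorem D1.fd (hf : ContDiff ℝ ∞ f) (h : D1 (k + 1) B f z) (v : E) :
    D0 k (‖v‖ * B) (fun y => fderiv ℝ f y v) z := fun j hj => by
  have hs : ContDiff ℝ ∞ (fderiv ℝ f) := hf.fderiv_right (m := ∞) le_rfl
  refine (norm_iteratedFDeriv_clm_apply_const (c := v) (hs.contDiffAt) (le_inf j)).trans ?_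
  rw [norm_iteratedFDeriv_fderiv]
  exact mul_le_mul_of_nonneg_left (h (j + 1) (by omega) (by omega)) (norm_nonneg v)

/-- The constant of the inverse square. -/
def cI (k : ℕ) : ℝ :=
  ∑ i ∈ Finset.range (k + 1), ‖iteratedFDerivWithin ℝ i (fun s : ℝ => (s ^ 2)⁻¹) (Ioi 0) 1‖

theorem cI_nn (k : ℕ) : 0 ≤ cI k := Finset.sum_nonneg fun _ _ => norm_nonneg _

/-- The inverse square of a function with the value `1`. -/
theorem D1.inv2 (hf : ContDiff ℝ ∞ f) (hp : ∀ y, 0 < f y) (h1 : f z = 1) (hB : 1 ≤ B)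
    (h : D1 k B f z) : D0 k (k ! * cI k * B ^ k) (fun y => (f y ^ 2)⁻¹) z := fun j hj => by
  have hg : ContDiffOn ℝ ∞ (fun s : ℝ => (s ^ 2)⁻¹) (Ioi 0) :=
    ((contDiff_id.pow 2).contDiffOn).inv fun s hs => pow_ne_zero 2 (ne_of_gt hs)
  have h2 := norm_iteratedFDeriv_comp_le' (g := fun s : ℝ => (s ^ 2)⁻¹) (f := f) (t := Ioi 0)
    (by rintro _ ⟨y, rfl⟩; exact hp y) isOpen_Ioi.uniqueDiffOn hg hf (le_inf j) z (C := cI k)
    (D := B) (fun i hi => by
      rw [h1]
      exact Finset.single_le_sum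
        (f := fun i => ‖iteratedFDerivWithin ℝ i (fun s : ℝ => (s ^ 2)⁻¹) (Ioi 0) 1‖)
        (fun _ _ => norm_nonneg _) (Finset.mem_range.2 (by omega)))
    (fun i h1 hi => (h i h1 (hi.trans hj)).trans (by
      calc B = B ^ 1 := (pow_one B).symm
        _ ≤ B ^ i := pow_le_pow_right₀ hB h1))
  refine h2.trans ?_
  have h3 : (j ! : ℝ) ≤ k ! := by exact_mod_cast Nat.factorial_le hj
  have h4 : B ^ j ≤ B ^ k := pow_le_pow_right₀ hB hj
  have h5 := cI_nn k
  have : 0 ≤ B ^ j := pow_nonneg (by linarith) j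
  gcongr

/-- Directional derivatives. -/
theorem D1.dir (hk : 1 ≤ k) (h : D1 k B f z) (v : E) : |fderiv ℝ f z v| ≤ B * ‖v‖ := by
  have h1 := h 1 le_rfl hk
  have e : ‖iteratedFDeriv ℝ 1 f z‖ = ‖fderiv ℝ f z‖ := by
    have := norm_iteratedFDeriv_fderiv (𝕜 := ℝ) (f := f) (x := z) (n := 0)
    rw [norm_iteratedFDeriv_zero] at this
    exact this.symm
  rw [e] at h1
  rw [← Real.norm_eq_abs]
  exact ((fderiv ℝ f z).le_opNorm v).trans (mul_le_mul_of_nonneg_right h1 (norm_nonneg v))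

theorem D1.dir2 (hf : ContDiff ℝ ∞ f) (hk : 2 ≤ k) (h : D1 k B f z) (v w : E) :
    |fderiv ℝ (fun y => fderiv ℝ f y v) z w| ≤ B * ‖v‖ * ‖w‖ := by
  obtain ⟨m, rfl⟩ : ∃ m, k = m + 1 := ⟨k - 1, by omega⟩
  have h1 := (h.fd hf v).d1.dir (by omega) w
  linarith

end Vale.Agent.P088.R2.H509.Jet
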