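import Vale.Agent.P088.R2.H644.W.Prof

/-!
# P088, stage 3, EST': the radii of the passes

`L = S' / S` for the profile `θ = 2`, final slope `4 / 5`, slow rate `ε`. `pr t` is the first
radius `r ≥ 1` with `r (L - 1) ≤ t L`; then `r (L - 1) ≤ t L` for all larger `r`.
-/

open Set Filter
open scoped ContDiff Topology

noncomputable section

namespace Vale.Agent.P088.R2.H509.Rad

open Vale.Agent.P088.R2.H644

variable {ε r₀ r s t : ℝ}

/-- `L`. -/
abbrev Lr (ε r₀ : ℝ) : ℝ → ℝ := Lf 2 (4 / 5) ε r₀ (1 / 10)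

/-- The set of the radii beyond. -/
def St (ε r₀ t : ℝ) : Set ℝ := {r : ℝ | 1 ≤ r ∧ r * (Lr ε r₀ r - 1) ≤ t * Lr ε r₀ r}

/-- The first radius. -/
def pr (ε r₀ t : ℝ) : ℝ := sInf (St ε r₀ t)

/-- The parameters are admissible. -/
structure Ok (ε r₀ : ℝ) : Prop where
  e0 : 0 < ε
  e1 : ε ≤ 1 / 100
  r1 : 1 ≤ r₀
  r2 : r₀ * Real.exp 2 ≤ Real.exp (2 / (5 * ε))

theorem exp_tenth : Real.exp (1 / 10) ≤ 5 / 4 := by
  have h := Real.exp_bound' (x := 1 / 10) (by norm_num) (by norm_num) (n := 2) (by norm_num)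
  norm_num [Finset.sum_range_succ, Nat.factorial] at h
  linarith

theorem Ok.pp (h : Ok ε r₀) : PP 2 (4 / 5) ε r₀ (1 / 10) where
  θ0 := by norm_num
  L0 := by norm_num
  ε0 := h.e0
  r0 := by linarith [h.r1]
  δ0 := by norm_num
  le := by linarith [exp_tenth]

theorem Ok.Lpos (h : Ok ε r₀) (r : ℝ) : 0 < Lr ε r₀ r := h.pp.Lf_pos r

theorem Ok.cont (h : Ok ε r₀) : ContinuousOn (Lr ε r₀) (Ioi 0) := fun _ hr =>
  (h.pp.hasDerivAt_Lf hr).continuousAt.continuousWithinAt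

theorem ramp_le {t : ℝ} (h : -1 ≤ t) : ramp t ≤ t + 1 := by
  have hanti : Antitone fun t => ramp t - t := by
    refine antitone_of_deriv_nonpos
      (fun t => ((hasDerivAt_ramp t).sub (hasDerivAt_id t)).differentiableAt) fun t => ?_
    have := ((hasDerivAt_ramp t).sub (hasDerivAt_id t)).deriv
    have e : (fun t => ramp t - t) = ramp - id := rfl
    rw [e, this]
    linarith [kap_le_one t]
  have h1 := hanti h
  simp only [ramp_zero (le_refl (-1 : ℝ))] at h1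
  linarith

/-- `L ≥ 2 r^(-ε)`. -/
theorem Ok.L_ge (h : Ok ε r₀) (hr : 1 ≤ r) : 2 * Real.exp (-(ε * Real.log r)) ≤ Lr ε r₀ r := by
  have hr0 : 0 < r := by linarith
  have hl : 0 ≤ Real.log r := Real.log_nonneg hr
  have hl0 : 0 ≤ Real.log r₀ := Real.log_nonneg h.r1
  have h1 : gz 2 (4 / 5) ε r₀ r ≤ 1 / 10 * ramp (gz 2 (4 / 5) ε r₀ r / (1 / 10)) := by
    have := le_ramp (gz 2 (4 / 5) ε r₀ r / (1 / 10))
    linarith
  have h2 : ε * ramp (Real.log r - Real.log r₀ - 1) ≤ ε * Real.log r := by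
    refine mul_le_mul_of_nonneg_left ?_ h.e0.le
    rcases le_total (Real.log r - Real.log r₀ - 1) (-1) with h3 | h3
    · rw [ramp_zero h3]
      exact hl
    · have := ramp_le h3
      linarith
  have h3 : Real.log 2 ≤ Real.log (Lz 2 r) :=
    Real.log_le_log (by norm_num) (le_Lz (by norm_num) hr0)
  have h4 : Real.log 2 - Real.log (4 / 5) - ε * Real.log r ≤
      1 / 10 * ramp (gz 2 (4 / 5) ε r₀ r / (1 / 10)) := by
    refine le_trans ?_ h1
    unfold gz az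
    linarith
  unfold Lr Lf
  have h5 := Real.exp_le_exp.2 h4
  have e : Real.exp (Real.log 2 - Real.log (4 / 5) - ε * Real.log r) =
      5 / 2 * Real.exp (-(ε * Real.log r)) := by
    rw [sub_eq_add_neg, Real.exp_add, Real.exp_sub, Real.exp_log (by norm_num),
      Real.exp_log (by norm_num)]
    norm_num
  rw [e] at h5
  linarith

/-- Radii with `L ≤ 4/3` are very large. -/
theorem Ok.big (h : Ok ε r₀) (hr : 1 ≤ r) (hL : Lr ε r₀ r ≤ 4 / 3) :
    Real.exp (2 / (5 * ε)) ≤ r := by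
  have h1 := (h.L_ge hr).trans hL
  have h2 : Real.exp (-(ε * Real.log r)) ≤ 2 / 3 := by linarith
  have h3 : 2 / 5 ≤ ε * Real.log r := by
    by_contra hc
    rw [not_le] at hc
    have h4 : Real.exp (-(2 / 5)) < Real.exp (-(ε * Real.log r)) := Real.exp_lt_exp.2 (by linarith)
    have h5 : (2 : ℝ) / 3 ≤ Real.exp (-(2 / 5)) := by
      have h6 : Real.exp (2 / 5) ≤ 3 / 2 := by
        have h7 := Real.exp_bound' (x := 2 / 5) (by norm_num) (by norm_num) (n := 4) (by norm_num)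
        norm_num [Finset.sum_range_succ, Nat.factorial] at h7
        linarith
      rw [Real.exp_neg, le_inv_comm₀ (by norm_num) (Real.exp_pos _)]
      linarith
    linarith
  have h4 : 2 / (5 * ε) ≤ Real.log r := by
    rw [div_le_iff₀ (by linarith [h.e0])]
    linarith
  have h5 := Real.exp_le_exp.2 h4
  rwa [Real.exp_log (by linarith)] at h5

/-- Large numbers: `exp (2 / (5 ε)) ≥ 4 / ε`. -/
theorem Ok.num (h : Ok ε r₀) : 4 / ε ≤ Real.exp (2 / (5 * ε)) := by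
  have h0 := h.e0
  have h1 : 0 ≤ 2 / (5 * ε) := by positivity
  have h2 := Real.quadratic_le_exp_of_nonneg h1
  have h3 : 40 ≤ 2 / (5 * ε) := by
    rw [le_div_iff₀ (by linarith)]
    linarith [h.e1]
  have h4 : 4 / ε = 10 * (2 / (5 * ε)) := by
    field_simp
    norm_num
  rw [h4]
  nlinarith

/-- The rate of decrease where `L > Li e^δ`. -/
theorem Ok.e_ge (h : Ok ε r₀) (hr : 1 ≤ r) (h1 : 1 < Lr ε r₀ r)
    (h2 : Real.exp (2 / (5 * ε)) ≤ r) : ε ≤ ef 2 (4 / 5) ε r₀ (1 / 10) r := by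
  have hr0 : 0 < r := by linarith
  have h3 : 1 ≤ gz 2 (4 / 5) ε r₀ r / (1 / 10) := by
    by_contra hc
    rw [not_le] at hc
    have h4 : ramp (gz 2 (4 / 5) ε r₀ r / (1 / 10)) ≤ 1 := by
      have := ramp_mono hc.le
      rwa [ramp_one] at this
    have h5 : Lr ε r₀ r ≤ 4 / 5 * Real.exp (1 / 10) := by
      unfold Lr Lf
      refine mul_le_mul_of_nonneg_left (Real.exp_le_exp.2 ?_) (by norm_num)
      linarith
    linarith [exp_tenth]
  have h4 : 1 ≤ Real.log r - Real.log r₀ - 1 := by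
    have h5 : r₀ * Real.exp 2 ≤ r := h.r2.trans h2
    have h6 := Real.log_le_log (by have := h.r1; positivity) h5
    rw [Real.log_mul (by linarith [h.r1]) (Real.exp_pos _).ne', Real.log_exp] at h6
    linarith
  unfold ef
  rw [kap_one h3, kap_one h4]
  have := ez_pos (θ := 2) (by norm_num) hr0
  linarith

/-- `g = r (1 - 1/L)`. -/
def gr (ε r₀ r : ℝ) : ℝ := r * (1 - 1 / Lr ε r₀ r)

theorem Ok.mem_iff (h : Ok ε r₀) : r * (Lr ε r₀ r - 1) ≤ t * Lr ε r₀ r ↔ gr ε r₀ r ≤ t := by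
  have hL := h.Lpos r
  have e : gr ε r₀ r = r * (Lr ε r₀ r - 1) / Lr ε r₀ r := by
    unfold gr
    field_simp
  rw [e, div_le_iff₀ hL]

theorem Ok.gr_cont (h : Ok ε r₀) : ContinuousOn (gr ε r₀) (Ioi 0) :=
  continuousOn_id.mul (continuousOn_const.sub (continuousOn_const.div h.cont
    fun r _ => (h.Lpos r).ne'))

theorem Ok.gr_deriv (h : Ok ε r₀) (hr : 0 < r) : HasDerivAt (gr ε r₀)
    ((Lr ε r₀ r - 1 - ef 2 (4 / 5) ε r₀ (1 / 10) r) / Lr ε r₀ r) r := by
  have hL := (h.Lpos r).ne'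
  have h1 := h.pp.hasDerivAt_Lf hr
  have h2 := (hasDerivAt_id r).mul ((hasDerivAt_const r (1 : ℝ)).sub
    ((hasDerivAt_const r (1 : ℝ)).div h1 hL))
  refine h2.congr_deriv ?_
  simp only [id, Pi.sub_apply, Pi.div_apply]
  field_simp
  ring

/-- In the set: `L ≤ 4/3`, `r` very large. -/
theorem Ok.L_le (h : Ok ε r₀) (ht : t ≤ 1 / 4) (hr : 1 ≤ r) (hg : gr ε r₀ r ≤ t) :
    Lr ε r₀ r ≤ 4 / 3 := by
  have hL := h.Lpos r
  by_contra hc
  rw [not_le] at hc
  have h1 : 1 / Lr ε r₀ r < 3 / 4 := by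
    rw [div_lt_iff₀ hL]
    linarith
  have h2 : 1 / 4 < gr ε r₀ r := by
    unfold gr
    nlinarith
  linarith

theorem Ok.L_lt (h : Ok ε r₀) (ht : t ≤ 1 / 4) (hr : 1 ≤ r) (hg : gr ε r₀ r ≤ t) :
    Lr ε r₀ r - 1 ≤ ε / 12 := by
  have hL := h.Lpos r
  have h1 := h.L_le ht hr hg
  have h2 := h.num.trans (h.big hr h1)
  have h3 := h.mem_iff.2 hg
  have h4 : r * (Lr ε r₀ r - 1) ≤ 1 / 3 := by nlinarith
  have h5 : 0 < ε := h.e0
  rw [div_le_iff₀ h5] at h2
  by_contra hc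
  rw [not_le] at hc
  nlinarith

/-- Nonempty. -/
theorem Ok.ne (h : Ok ε r₀) (ht : 0 ≤ t) : (St ε r₀ t).Nonempty := by
  obtain ⟨R, h1, h2⟩ := h.pp.exists_R
  refine ⟨R, by linarith [h.r1], ?_⟩
  have h3 := (h2 R le_rfl).1
  have h4 : 0 < R := by linarith [h.r1]
  show R * (Lr ε r₀ R - 1) ≤ t * Lr ε r₀ R
  rw [show Lr ε r₀ R = 4 / 5 from h3]
  nlinarith

theorem St_bdd (ε r₀ t : ℝ) : BddBelow (St ε r₀ t) := ⟨1, fun _ h => h.1⟩

theorem Ok.one_le (h : Ok ε r₀) (ht : 0 ≤ t) : 1 ≤ pr ε r₀ t :=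
  le_csInf (h.ne ht) fun _ hr => hr.1

theorem Ok.closed (h : Ok ε r₀) : IsClosed (St ε r₀ t) := by
  have e : St ε r₀ t = Ici 1 ∩ {r | gr ε r₀ r ≤ t} := by
    ext r
    show 1 ≤ r ∧ _ ↔ 1 ≤ r ∧ _
    rw [h.mem_iff]
    rfl
  rw [e]
  have hs : Ici (1 : ℝ) ⊆ Ioi 0 := fun r hr =>
    show (0 : ℝ) < r from lt_of_lt_of_le one_pos (mem_Ici.1 hr)
  exact (h.gr_cont.mono hs).preimage_isClosed_of_isClosed isClosed_Ici isClosed_Iic

theorem Ok.mem (h : Ok ε r₀) (ht : 0 ≤ t) : pr ε r₀ t ∈ St ε r₀ t :=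
  h.closed.csInf_mem (h.ne ht) (St_bdd _ _ _)

theorem Ok.gr_le (h : Ok ε r₀) (ht : 0 ≤ t) : gr ε r₀ (pr ε r₀ t) ≤ t :=
  h.mem_iff.1 (h.mem ht).2

/-- Before `pr`. -/
theorem Ok.before (h : Ok ε r₀) (hr : 1 ≤ r) (h1 : r < pr ε r₀ t) : t < gr ε r₀ r := by
  by_contra hc
  rw [not_lt] at hc
  exact absurd (csInf_le (St_bdd ε r₀ t) ⟨hr, h.mem_iff.2 hc⟩) (not_le.2 h1)

/-- **After `pr`.** -/
theorem Ok.after (h : Ok ε r₀) (ht : 0 ≤ t) (ht1 : t ≤ 1 / 4) (hr : pr ε r₀ t ≤ r) :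
    gr ε r₀ r ≤ t := by
  have hp := h.one_le ht
  have hr1 : 1 ≤ r := hp.trans hr
  have hL := h.Lpos r
  rcases le_or_gt (Lr ε r₀ r) 1 with h1 | h1
  · have h2 : 1 ≤ 1 / Lr ε r₀ r := by
      rw [le_div_iff₀ hL]
      linarith
    have : gr ε r₀ r ≤ 0 := by
      unfold gr
      nlinarith
    linarith
  have h3 := h.L_lt ht1 hp (h.gr_le ht)
  have h4 := h.big hp (h.L_le ht1 hp (h.gr_le ht))
  have hanti : AntitoneOn (gr ε r₀) (Icc (pr ε r₀ t) r) := by
    refine antitoneOn_of_deriv_nonpos (convex_Icc _ _)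
      (h.gr_cont.mono fun s hs => lt_of_lt_of_le (by linarith) hs.1) ?_ ?_
    · intro s hs
      rw [interior_Icc] at hs
      exact (h.gr_deriv (by linarith [hs.1])).differentiableAt.differentiableWithinAt
    · intro s hs
      rw [interior_Icc] at hs
      have s0 : 0 < s := by linarith [hs.1]
      rw [(h.gr_deriv s0).deriv]
      have k1 : Lr ε r₀ r ≤ Lr ε r₀ s := h.pp.antitone_Lf s0 (by linarith [hs.2] : (0 : ℝ) < r)
        hs.2.le
      have k2 : Lr ε r₀ s ≤ Lr ε r₀ (pr ε r₀ t) := h.pp.antitone_Lf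
        (by linarith : (0 : ℝ) < pr ε r₀ t) s0 hs.1.le
      have k3 := h.e_ge (r := s) (by linarith [hs.1]) (by linarith) (h4.trans hs.1.le)
      have k4 := h.e0
      exact div_nonpos_of_nonpos_of_nonneg (by linarith) (h.Lpos s).le
  exact (hanti (left_mem_Icc.2 hr) (right_mem_Icc.2 hr) hr).trans (h.gr_le ht)

/-- Equality at `pr`. -/
theorem Ok.gr_eq (h : Ok ε r₀) (ht : 0 ≤ t) (ht1 : t ≤ 1 / 4) : gr ε r₀ (pr ε r₀ t) = t := by
  refine le_antisymm (h.gr_le ht) ?_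
  have hp := h.one_le ht
  have hb := h.big hp (h.L_le ht1 hp (h.gr_le ht))
  have hn := h.num
  have h1 : 1 < pr ε r₀ t := by
    have : 400 ≤ 4 / ε := by
      rw [le_div_iff₀ h.e0]
      linarith [h.e1]
    linarith
  have h2 : Tendsto (gr ε r₀) (𝓝[<] pr ε r₀ t) (𝓝 (gr ε r₀ (pr ε r₀ t))) :=
    ((h.gr_deriv (by linarith : 0 < pr ε r₀ t)).continuousAt.tendsto).mono_left
      nhdsWithin_le_nhds
  refine ge_of_tendsto h2 ?_
  filter_upwards [Ioo_mem_nhdsLT h1] with r hr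
  exact (h.before hr.1.le hr.2).le

theorem Ok.pr_lt (h : Ok ε r₀) {t' : ℝ} (ht' : 0 ≤ t') (htt : t' < t) (ht1 : t ≤ 1 / 4) :
    pr ε r₀ t < pr ε r₀ t' := by
  have ht : 0 ≤ t := ht'.trans htt.le
  by_contra hc
  rw [not_lt] at hc
  have h1 := h.after ht' (htt.le.trans ht1) hc
  rw [h.gr_eq ht ht1] at h1
  linarith

/-- **Beyond `3/2 pr`**: `L ≤ 1 - ε / 5`. -/
theorem Ok.beyond (h : Ok ε r₀) (ht : 0 ≤ t) (ht1 : t ≤ 1 / 4) (hr : 3 / 2 * pr ε r₀ t ≤ r) :
    Lr ε r₀ r ≤ 1 - ε / 5 := by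
  have hp := h.one_le ht
  have hp0 : 0 < pr ε r₀ t := by linarith
  have h3 := h.L_lt ht1 hp (h.gr_le ht)
  have h4 := h.big hp (h.L_le ht1 hp (h.gr_le ht))
  have he := h.e0
  have he1 := h.e1
  set p := pr ε r₀ t with hpd
  have hr0 : 0 < 3 / 2 * p := by linarith
  have hm : Lr ε r₀ r ≤ Lr ε r₀ (3 / 2 * p) := h.pp.antitone_Lf hr0 (by linarith : (0 : ℝ) < r) hr
  refine hm.trans ?_
  by_contra hc
  rw [not_le] at hc
  -- on `[p, 3/2 p]` the rate is at least `ε`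
  have hrate : ∀ s, p ≤ s → s ≤ 3 / 2 * p → ε ≤ ef 2 (4 / 5) ε r₀ (1 / 10) s := by
    intro s h5 h6
    have s0 : 0 < s := by linarith
    have k1 : Lr ε r₀ (3 / 2 * p) ≤ Lr ε r₀ s := h.pp.antitone_Lf s0 hr0 h6
    have k2 : 1 - ε / 5 < Lr ε r₀ s := hc.trans_le k1
    have h3' : 1 ≤ gz 2 (4 / 5) ε r₀ s / (1 / 10) := by
      by_contra hcc
      rw [not_le] at hcc
      have h4' : ramp (gz 2 (4 / 5) ε r₀ s / (1 / 10)) ≤ 1 := by
        have := ramp_mono hcc.le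
        rwa [ramp_one] at this
      have h5' : Lr ε r₀ s ≤ 4 / 5 * Real.exp (1 / 10) := by
        unfold Lr Lf
        refine mul_le_mul_of_nonneg_left (Real.exp_le_exp.2 ?_) (by norm_num)
        linarith
      have h6' : Real.exp (1 / 10) ≤ 6 / 5 := by
        have h := Real.exp_bound' (x := 1 / 10) (by norm_num) (by norm_num) (n := 2)
          (by norm_num)
        norm_num [Finset.sum_range_succ, Nat.factorial] at h
        linarith
      linarith
    have h4' : 1 ≤ Real.log s - Real.log r₀ - 1 := by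
      have h5' : r₀ * Real.exp 2 ≤ s := h.r2.trans (h4.trans h5)
      have h6' := Real.log_le_log (by have := h.r1; positivity) h5'
      rw [Real.log_mul (by linarith [h.r1]) (Real.exp_pos _).ne', Real.log_exp] at h6'
      linarith
    unfold ef
    rw [kap_one h3', kap_one h4']
    have := ez_pos (θ := 2) (by norm_num) s0
    linarith
  -- `log L + ε log s` is antitone
  have hanti : AntitoneOn (fun s => Real.log (Lr ε r₀ s) + ε * Real.log s)
      (Icc p (3 / 2 * p)) := by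
    have hd : ∀ s, 0 < s → HasDerivAt (fun s => Real.log (Lr ε r₀ s) + ε * Real.log s)
        ((ε - ef 2 (4 / 5) ε r₀ (1 / 10) s) / s) s := by
      intro s s0
      have k := ((h.pp.hasDerivAt_Lf s0).log (h.Lpos s).ne').add
        ((Real.hasDerivAt_log s0.ne').const_mul ε)
      refine k.congr_deriv ?_
      have hL : Lf 2 (4 / 5) ε r₀ (1 / 10) s ≠ 0 := (h.Lpos s).ne'
      field_simp
      ring
    refine antitoneOn_of_deriv_nonpos (convex_Icc _ _) (fun s hs =>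
      (hd s (by linarith [hs.1])).continuousAt.continuousWithinAt) ?_ ?_
    · intro s hs
      rw [interior_Icc] at hs
      exact (hd s (by linarith [hs.1])).differentiableAt.differentiableWithinAt
    · intro s hs
      rw [interior_Icc] at hs
      have s0 : 0 < s := by linarith [hs.1]
      rw [(hd s s0).deriv]
      exact div_nonpos_of_nonpos_of_nonneg (by linarith [hrate s hs.1.le hs.2.le]) s0.le
  have h5 := hanti (left_mem_Icc.2 (by linarith)) (right_mem_Icc.2 (by linarith))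
    (by linarith : p ≤ 3 / 2 * p)
  simp only at h5
  rw [Real.log_mul (by norm_num) hp0.ne'] at h5
  have h6 : Real.log (Lr ε r₀ p) ≤ ε / 12 := by
    have := Real.log_le_sub_one_of_pos (h.Lpos p)
    linarith
  have h7 : 2 / 5 ≤ Real.log (3 / 2) := by
    rw [Real.le_log_iff_exp_le (by norm_num)]
    have h7 := Real.exp_bound' (x := 2 / 5) (by norm_num) (by norm_num) (n := 4) (by norm_num)
    norm_num [Finset.sum_range_succ, Nat.factorial] at h7
    linarith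
  have h8 : Real.log (Lr ε r₀ (3 / 2 * p)) ≤ -(3 / 10 * ε) := by nlinarith
  have h9 : Lr ε r₀ (3 / 2 * p) ≤ Real.exp (-(3 / 10 * ε)) := by
    rw [← Real.exp_log (h.Lpos (3 / 2 * p))]
    exact Real.exp_le_exp.2 h8
  have h10 : Real.exp (-(3 / 10 * ε)) ≤ 1 - ε / 5 := by
    have k1 : 1 + 3 / 10 * ε ≤ Real.exp (3 / 10 * ε) := by
      have := Real.add_one_le_exp (3 / 10 * ε)
      linarith
    rw [Real.exp_neg, inv_le_comm₀ (Real.exp_pos _) (by linarith)]
    refine le_trans ?_ k1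
    rw [inv_le_comm₀ (by linarith) (by linarith), inv_eq_one_div, div_le_iff₀ (by linarith)]
    nlinarith
  linarith

/-- `pr t' < 3/2 pr t`. -/
theorem Ok.pr_lt' (h : Ok ε r₀) {t' : ℝ} (ht' : 0 < t') (ht1' : t' ≤ 1 / 4) (ht : 0 ≤ t)
    (ht1 : t ≤ 1 / 4) : pr ε r₀ t' < 3 / 2 * pr ε r₀ t := by
  by_contra hc
  rw [not_lt] at hc
  have h1 := h.beyond ht ht1 hc
  have h2 := h.gr_eq ht'.le ht1'
  have hp := h.one_le (t := t') ht'.le
  have hL := h.Lpos (pr ε r₀ t')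
  have h3 : 1 ≤ 1 / Lr ε r₀ (pr ε r₀ t') := by
    rw [le_div_iff₀ hL]
    linarith [h.e0]
  have : gr ε r₀ (pr ε r₀ t') ≤ 0 := by
    unfold gr
    nlinarith
  linarith

end Vale.Agent.P088.R2.H509.Rad
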